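import Vale.Agent.P205.Tw.Inv

/-!
# P205, circle-invariant torus metrics with arbitrary twist: the data extracted from `E, F, G`
-/

open scoped ContDiff Real
open MeasureTheory intervalIntegral

namespace Vale.Agent.P205.Tw

/-- DA1. Hint: minimum on the compact [0,1] (IsCompact.exists_isMinOn, isCompact_Icc) and
Function.Periodic.exists_mem_Ico₀. -/
theorem periodic_lower {h : ℝ → ℝ} (hc : Continuous h) (hp : Function.Periodic h 1)
    (hpos : ∀ x, 0 < h x) : ∃ c, 0 < c ∧ ∀ x, c ≤ h x := by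
  obtain ⟨x0, -, hx0⟩ := (isCompact_Icc (a := (0:ℝ)) (b := 1)).exists_isMinOn
    ⟨0, ⟨le_refl _, zero_le_one⟩⟩ hc.continuousOn
  refine ⟨h x0, hpos x0, fun x => ?_⟩
  obtain ⟨y, hy, hxy⟩ := hp.exists_mem_Ico₀ one_pos x
  rw [hxy]
  exact hx0 ⟨hy.1, hy.2.le⟩

theorem periodic_bounded {h : ℝ → ℝ} (hc : Continuous h) (hp : Function.Periodic h 1) :
    ∃ C, ∀ x, h x ≤ C := by
  obtain ⟨C, hC⟩ := (isCompact_Icc (a := (0:ℝ)) (b := 1)).exists_bound_of_continuousOn
    hc.continuousOn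
  refine ⟨C, fun x => ?_⟩
  obtain ⟨y, hy, hxy⟩ := hp.exists_mem_Ico₀ one_pos x
  rw [hxy]
  exact (le_abs_self _).trans (hC y ⟨hy.1, hy.2.le⟩)

theorem periodic_deriv' {h : ℝ → ℝ} (hp : Function.Periodic h 1) : Function.Periodic (deriv h) 1 := by
  intro x
  have : (fun y => h (y + 1)) = h := funext hp
  calc deriv h (x + 1) = deriv (fun y => h (y + 1)) x := (deriv_comp_add_const h 1 x).symm
    _ = deriv h x := by rw [this]

/-- the radius -/
noncomputable def rr (G : ℝ → ℝ) (m : ℕ) (x : ℝ) : ℝ := √(G x) / (2 * π * m)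
/-- its derivative -/
noncomputable def rr' (G : ℝ → ℝ) (m : ℕ) (x : ℝ) : ℝ := deriv (fun y => √(G y)) x / (2 * π * m)
noncomputable def DD (E F G : ℝ → ℝ) (x : ℝ) : ℝ := E x - F x ^ 2 / G x
noncomputable def WW (E F G : ℝ → ℝ) (m : ℕ) (x : ℝ) : ℝ := DD E F G x - rr' G m x ^ 2
/-- the speed of the base curve -/
noncomputable def vv (E F G : ℝ → ℝ) (m : ℕ) (x : ℝ) : ℝ := √(WW E F G m x) / rr G m x

variable {E F G : ℝ → ℝ}

/-- DA2. Hint: hG.sqrt (fun x => (posG x).ne'), ContDiff.div_const. -/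
theorem rr_contDiff (hG : ContDiff ℝ ∞ G) (posG : ∀ x, 0 < G x) (m : ℕ) : ContDiff ℝ ∞ (rr G m) := by
  unfold rr
  exact (hG.sqrt (fun x => (posG x).ne')).div_const _

/-- DA3. Hint: the square root of G is differentiable (DA2 argument), DifferentiableAt.hasDerivAt, HasDerivAt.div_const. -/
theorem rr_hasDerivAt (hG : ContDiff ℝ ∞ G) (posG : ∀ x, 0 < G x) (m : ℕ) (x : ℝ) :
    HasDerivAt (rr G m) (rr' G m x) x := by
  have h1 : ContDiff ℝ ∞ (fun y => √(G y)) := hG.sqrt (fun x => (posG x).ne')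
  have h2 : DifferentiableAt ℝ (fun y => √(G y)) x :=
    (h1.differentiable (by simp)).differentiableAt
  exact h2.hasDerivAt.div_const _

/-- DA4. -/
theorem rr_periodic (pG : Function.Periodic G 1) (m : ℕ) : Function.Periodic (rr G m) 1 := by
  intro x
  unfold rr
  rw [pG x]

/-- DA5. Hint: periodic_deriv' applied to the square root of G. -/
theorem rr'_periodic (pG : Function.Periodic G 1) (m : ℕ) : Function.Periodic (rr' G m) 1 := by
  intro x
  have hp : Function.Periodic (fun y => √(G y)) 1 := by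
    intro y
    show √(G (y + 1)) = √(G y)
    rw [pG y]
  unfold rr'
  rw [periodic_deriv' hp x]

/-- DA6. Hint: (contDiff_infty_iff_deriv.1 (hG.sqrt ..)).2, div_const. -/
theorem rr'_contDiff (hG : ContDiff ℝ ∞ G) (posG : ∀ x, 0 < G x) (m : ℕ) :
    ContDiff ℝ ∞ (rr' G m) := by
  have h1 : ContDiff ℝ ∞ (fun y => √(G y)) := hG.sqrt (fun x => (posG x).ne')
  have h2 : ContDiff ℝ ∞ (deriv (fun y => √(G y))) := (contDiff_infty_iff_deriv.1 h1).2
  unfold rr'
  exact h2.div_const _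

/-- DA7. Hint: Real.sq_sqrt, field_simp. -/
theorem rr_sq (posG : ∀ x, 0 < G x) {m : ℕ} (hm : 0 < m) (x : ℝ) :
    (2 * π * m * rr G m x) ^ 2 = G x := by
  unfold rr
  have hm' : (0:ℝ) < m := by exact_mod_cast hm
  have hpi : (0:ℝ) < π := Real.pi_pos
  have h : 2 * π * m * (√(G x) / (2 * π * m)) = √(G x) := by
    field_simp
  rw [h, Real.sq_sqrt (posG x).le]

/-- DA8. -/
theorem rr_pos (posG : ∀ x, 0 < G x) {m : ℕ} (hm : 0 < m) (x : ℝ) : 0 < rr G m x := by
  unfold rr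
  have h1 : 0 < √(G x) := Real.sqrt_pos.2 (posG x)
  have h2 : (0 : ℝ) < m := Nat.cast_pos.2 hm
  have h3 := Real.pi_pos
  positivity

/-- DA9. Hint: DD = (E G - F^2)/G. -/
theorem DD_pos (posG : ∀ x, 0 < G x) (posdet : ∀ x, 0 < E x * G x - F x ^ 2) (x : ℝ) :
    0 < DD E F G x := by
  have e : DD E F G x = (E x * G x - F x ^ 2) / G x := by
    unfold DD
    have := (posG x).ne'
    field_simp
  rw [e]
  exact div_pos (posdet x) (posG x)

/-- DA10. -/
theorem DD_contDiff (hE : ContDiff ℝ ∞ E) (hF : ContDiff ℝ ∞ F) (hG : ContDiff ℝ ∞ G)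
    (posG : ∀ x, 0 < G x) : ContDiff ℝ ∞ (DD E F G) := by
  unfold DD
  exact hE.sub ((hF.pow 2).div hG (fun x => (posG x).ne'))

/-- DA11. -/
theorem DD_periodic (pE : Function.Periodic E 1) (pF : Function.Periodic F 1)
    (pG : Function.Periodic G 1) : Function.Periodic (DD E F G) 1 := by
  intro x
  unfold DD
  rw [pE x, pF x, pG x]

/-- DA12. For large m the correction is at most half of DD.  Hint: periodic_bounded for
(deriv sqrt G)^2 / DD gives C with (deriv sqrt G x)^2 ≤ C * DD x; take m0 > max C 1; for m ≥ m0: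
(2 pi m)^2 ≥ 2 m ≥ 2 C, so rr'^2 = (deriv ..)^2/(2 pi m)^2 ≤ DD/2. -/
theorem exists_m0 (hE : ContDiff ℝ ∞ E) (hF : ContDiff ℝ ∞ F) (hG : ContDiff ℝ ∞ G)
    (pE : Function.Periodic E 1) (pF : Function.Periodic F 1) (pG : Function.Periodic G 1)
    (posG : ∀ x, 0 < G x) (posdet : ∀ x, 0 < E x * G x - F x ^ 2) :
    ∃ m0 : ℕ, ∀ m : ℕ, m0 ≤ m → ∀ x, DD E F G x / 2 ≤ WW E F G m x := by
  have hD := DD_pos (E := E) (F := F) posG posdet
  have hs : ContDiff ℝ ∞ (fun y => √(G y)) := hG.sqrt (fun x => (posG x).ne')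
  have hdc : Continuous (deriv (fun y => √(G y))) := (contDiff_infty_iff_deriv.1 hs).2.continuous
  have hdp : Function.Periodic (deriv (fun y => √(G y))) 1 :=
    periodic_deriv' (h := fun y => √(G y)) (fun x => by
      show √(G (x + 1)) = √(G x)
      rw [pG x])
  have hDc : Continuous (DD E F G) := (DD_contDiff hE hF hG posG).continuous
  have hDp := DD_periodic pE pF pG
  obtain ⟨C, hC⟩ := periodic_bounded
    (h := fun x => deriv (fun y => √(G y)) x ^ 2 / DD E F G x)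
    ((hdc.pow 2).div hDc (fun x => (hD x).ne')) (fun x => by
      show deriv (fun y => √(G y)) (x + 1) ^ 2 / DD E F G (x + 1) = _
      rw [hdp x, hDp x])
  obtain ⟨m0, hm0⟩ := exists_nat_gt (max C 1)
  refine ⟨m0, fun m hm x => ?_⟩
  have hmR : (m0 : ℝ) ≤ m := by exact_mod_cast hm
  have hCm : C ≤ m := ((le_max_left C 1).trans hm0.le).trans hmR
  have h1m : (1 : ℝ) ≤ m := ((le_max_right C 1).trans hm0.le).trans hmR
  have hx := hC x
  rw [div_le_iff₀ (hD x)] at hx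
  have hpi := Real.pi_gt_three
  have hK : 2 * (m : ℝ) ≤ (2 * π * m) ^ 2 := by
    have b1 : (m : ℝ) ≤ 2 * π * m := by nlinarith
    have b2 : (2 : ℝ) ≤ 2 * π * m := by nlinarith
    have b3 : 2 * (m : ℝ) ≤ (2 * π * m) * (2 * π * m) :=
      mul_le_mul b2 b1 (by linarith) (by linarith)
    rw [sq]
    exact b3
  have hK0 : 0 < (2 * π * m) ^ 2 := by positivity
  have key : rr' G m x ^ 2 ≤ DD E F G x / 2 := by
    unfold rr'
    rw [div_pow, div_le_iff₀ hK0]
    have a1 : C * DD E F G x ≤ m * DD E F G x := mul_le_mul_of_nonneg_right hCm (hD x).le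
    have a2 : 2 * (m : ℝ) * DD E F G x ≤ (2 * π * m) ^ 2 * DD E F G x :=
      mul_le_mul_of_nonneg_right hK (hD x).le
    linarith
  unfold WW
  linarith

/-- DA13. Hint: ContDiff.sqrt (WW ≠ 0), ContDiff.div (rr ≠ 0 by rr_pos); WW is smooth by DA10, DA6. -/
theorem vv_contDiff (hE : ContDiff ℝ ∞ E) (hF : ContDiff ℝ ∞ F) (hG : ContDiff ℝ ∞ G)
    (posG : ∀ x, 0 < G x) {m : ℕ} (hm : 0 < m) (hW : ∀ x, 0 < WW E F G m x) :
    ContDiff ℝ ∞ (vv E F G m) := by
  have hWW : ContDiff ℝ ∞ (WW E F G m) := by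
    unfold WW
    exact (DD_contDiff hE hF hG posG).sub ((rr'_contDiff hG posG m).pow 2)
  unfold vv
  exact (hWW.sqrt (fun x => (hW x).ne')).div (rr_contDiff hG posG m)
    (fun x => (rr_pos posG hm x).ne')

/-- DA14. -/
theorem vv_periodic (pE : Function.Periodic E 1) (pF : Function.Periodic F 1)
    (pG : Function.Periodic G 1) (m : ℕ) : Function.Periodic (vv E F G m) 1 := by
  intro x
  unfold vv WW
  rw [DD_periodic pE pF pG x, rr'_periodic pG m x, rr_periodic pG m x]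

/-- DA15. Hint: rr^2 * vv^2 = WW (Real.sq_sqrt, rr ≠ 0), unfold WW DD; ring. -/
theorem energy_eq (posG : ∀ x, 0 < G x) {m : ℕ} (hm : 0 < m) (hW : ∀ x, 0 < WW E F G m x) (x : ℝ) :
    rr' G m x ^ 2 + F x ^ 2 / G x + rr G m x ^ 2 * vv E F G m x ^ 2 = E x := by
  have hr := (rr_pos posG hm x).ne'
  have h1 : rr G m x ^ 2 * vv E F G m x ^ 2 = WW E F G m x := by
    unfold vv
    rw [div_pow, Real.sq_sqrt (hW x).le]
    field_simp
  rw [h1]
  unfold WW DD
  ring

/-- DA16. Lower bound for the speed.  Hint: vv = 2 pi m sqrt(WW)/sqrt(G) = 2 pi m sqrt(WW/G) ≥ 2 pi m sqrt(DD/(2G)) ≥ m * sqrt(DD/(2G))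
(Real.sqrt_div, Real.sqrt_le_sqrt, 1 ≤ 2 pi). -/
theorem vv_ge (posG : ∀ x, 0 < G x) {m : ℕ} (hm : 0 < m) (x : ℝ)
    (hW : DD E F G x / 2 ≤ WW E F G m x) (hD : 0 < DD E F G x) :
    m * √(DD E F G x / (2 * G x)) ≤ vv E F G m x := by
  have hg := posG x
  have hsg : 0 < √(G x) := Real.sqrt_pos.2 hg
  have hmR : (0 : ℝ) < m := Nat.cast_pos.2 hm
  have hpi : (1 : ℝ) ≤ 2 * π := by
    have := Real.pi_gt_three
    linarith
  have e1 : DD E F G x / (2 * G x) = (DD E F G x / 2) / G x := by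
    field_simp
  have e2 : √(DD E F G x / (2 * G x)) = √(DD E F G x / 2) / √(G x) := by
    rw [e1, Real.sqrt_div (by linarith)]
  have h1 : √(DD E F G x / 2) ≤ √(WW E F G m x) := Real.sqrt_le_sqrt hW
  have e3 : vv E F G m x = (2 * π * m) * (√(WW E F G m x) / √(G x)) := by
    unfold vv rr
    field_simp
  rw [e2, e3]
  have h2 : √(DD E F G x / 2) / √(G x) ≤ √(WW E F G m x) / √(G x) :=
    div_le_div_of_nonneg_right h1 hsg.le
  have h3 : 0 ≤ √(DD E F G x / 2) / √(G x) := by positivity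
  calc (m : ℝ) * (√(DD E F G x / 2) / √(G x))
      ≤ (2 * π * m) * (√(DD E F G x / 2) / √(G x)) := by
        apply mul_le_mul_of_nonneg_right _ h3
        nlinarith
    _ ≤ _ := mul_le_mul_of_nonneg_left h2 (by positivity)

/-- DA17. Hint: c ≤ v pointwise gives c = ∫ 0..1 c ≤ ∫ 0..1 v (intervalIntegral.integral_mono_on). -/
theorem prim_one_ge {v : ℝ → ℝ} (hc : Continuous v) {c : ℝ} (h : ∀ x, c ≤ v x) : c ≤ prim v 1 := by
  have h1 : (∫ _ in (0:ℝ)..1, c) ≤ ∫ t in (0:ℝ)..1, v t :=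
    intervalIntegral.integral_mono_on zero_le_one (continuous_const.intervalIntegrable _ _)
      (hc.intervalIntegrable _ _) (fun x _ => h x)
  rw [intervalIntegral.integral_const, sub_zero, one_smul] at h1
  exact h1

/-- DA18 (assembly of this file).  Hint: m0 from exists_m0; c > 0 a lower bound of sqrt(DD/(2G)) (periodic_lower; continuity from DA10);
m = max m0 (max 1 (ceil (L0 / c))); r = rr G m, r' = rr' G m, v = vv E F G m; WW > 0 from DD/2 ≤ WW and DD_pos;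
L0 ≤ m c ≤ prim v 1 by vv_ge and prim_one_ge. -/
theorem exists_data (hE : ContDiff ℝ ∞ E) (hF : ContDiff ℝ ∞ F) (hG : ContDiff ℝ ∞ G)
    (pE : Function.Periodic E 1) (pF : Function.Periodic F 1) (pG : Function.Periodic G 1)
    (posG : ∀ x, 0 < G x) (posdet : ∀ x, 0 < E x * G x - F x ^ 2) (L0 : ℝ) :
    ∃ (m : ℕ) (r r' v : ℝ → ℝ), 0 < m ∧ ContDiff ℝ ∞ r ∧ (∀ x, HasDerivAt r (r' x) x) ∧
      Function.Periodic r 1 ∧ ContDiff ℝ ∞ v ∧ Function.Periodic v 1 ∧
      (∀ x, (2 * π * m * r x) ^ 2 = G x) ∧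
      (∀ x, r' x ^ 2 + F x ^ 2 / G x + r x ^ 2 * v x ^ 2 = E x) ∧ L0 ≤ prim v 1 := by
  obtain ⟨m0, hm0⟩ := exists_m0 hE hF hG pE pF pG posG posdet
  have hDpos : ∀ x, 0 < DD E F G x := fun x => DD_pos posG posdet x
  have hDc : ContDiff ℝ ∞ (DD E F G) := DD_contDiff hE hF hG posG
  have hcont : Continuous fun x => √(DD E F G x / (2 * G x)) := by
    apply Continuous.sqrt
    apply Continuous.div hDc.continuous (continuous_const.mul hG.continuous)
    intro x
    have := posG x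
    exact (by linarith : (0 : ℝ) < 2 * G x).ne'
  have hper : Function.Periodic (fun x => √(DD E F G x / (2 * G x))) 1 := by
    intro x
    show √(DD E F G (x + 1) / (2 * G (x + 1))) = _
    rw [DD_periodic pE pF pG x, pG x]
  have hpos : ∀ x, 0 < √(DD E F G x / (2 * G x)) := by
    intro x
    apply Real.sqrt_pos.2
    have h1 := posG x
    have h2 := hDpos x
    positivity
  obtain ⟨c, hc, hcle⟩ := periodic_lower hcont hper hpos
  have hm0' : m0 ≤ max m0 (max 1 ⌈L0 / c⌉₊) := le_max_left _ _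
  have hm1 : 0 < max m0 (max 1 ⌈L0 / c⌉₊) :=
    lt_of_lt_of_le one_pos ((le_max_left 1 _).trans (le_max_right _ _))
  have hmL : L0 / c ≤ ((max m0 (max 1 ⌈L0 / c⌉₊) : ℕ) : ℝ) := by
    have h1 : L0 / c ≤ (⌈L0 / c⌉₊ : ℝ) := Nat.le_ceil _
    have h2 : (⌈L0 / c⌉₊ : ℝ) ≤ ((max m0 (max 1 ⌈L0 / c⌉₊) : ℕ) : ℝ) := by
      exact_mod_cast (le_max_right 1 _).trans (le_max_right _ _)
    linarith
  generalize max m0 (max 1 ⌈L0 / c⌉₊) = m at hm0' hm1 hmL
  have hW : ∀ x, 0 < WW E F G m x := fun x => by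
    have h1 := hm0 m hm0' x
    have h2 := hDpos x
    linarith
  have hv : ContDiff ℝ ∞ (vv E F G m) := vv_contDiff hE hF hG posG hm1 hW
  refine ⟨m, rr G m, rr' G m, vv E F G m, hm1, rr_contDiff hG posG m, rr_hasDerivAt hG posG m,
    rr_periodic pG m, hv, vv_periodic pE pF pG m, rr_sq posG hm1, energy_eq posG hm1 hW, ?_⟩
  have hlow : ∀ x, (m : ℝ) * c ≤ vv E F G m x := fun x => by
    have h1 := vv_ge posG hm1 x (hm0 m hm0' x) (hDpos x)
    have h2 : (m : ℝ) * c ≤ m * √(DD E F G x / (2 * G x)) :=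
      mul_le_mul_of_nonneg_left (hcle x) (Nat.cast_nonneg m)
    linarith
  have h3 := prim_one_ge hv.continuous hlow
  have h4 : L0 ≤ m * c := by rwa [div_le_iff₀ hc] at hmL
  linarith

end Vale.Agent.P205.Tw
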