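import Mathlib

/-!
# P205, circle-invariant torus metrics with arbitrary twist: primitives and the time change
-/

open scoped ContDiff Real
open MeasureTheory intervalIntegral

namespace Vale.Agent.P205.Tw

/-- the primitive vanishing at 0 -/
noncomputable def prim (f : ℝ → ℝ) (x : ℝ) : ℝ := ∫ t in (0:ℝ)..x, f t

theorem prim_hasDerivAt {v : ℝ → ℝ} (hc : Continuous v) (x : ℝ) : HasDerivAt (prim v) (v x) x :=
  intervalIntegral.integral_hasDerivAt_right (hc.intervalIntegrable _ _)
      (hc.stronglyMeasurableAtFilter _ _) hc.continuousAt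

theorem prim_contDiff {v : ℝ → ℝ} (hv : ContDiff ℝ ∞ v) : ContDiff ℝ ∞ (prim v) := by
  rw [contDiff_infty_iff_deriv]
  have hc : Continuous v := hv.continuous
  refine ⟨fun x => (prim_hasDerivAt hc x).differentiableAt, ?_⟩
  have : deriv (prim v) = v := by
    funext x
    exact (prim_hasDerivAt hc x).deriv
  rw [this]
  exact hv

theorem prim_add_one {v : ℝ → ℝ} (hc : Continuous v) (hp : Function.Periodic v 1) (x : ℝ) :
    prim v (x + 1) = prim v x + prim v 1 := by
  unfold prim
  rw [← intervalIntegral.integral_add_adjacent_intervals (hc.intervalIntegrable 0 x)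
    (hc.intervalIntegrable x (x + 1))]
  congr 1
  have := hp.intervalIntegral_add_eq x 0
  simpa using this

variable {lm : ℝ → ℝ}

/-- IN1. Hint: strictMono_of_deriv_pos with (prim_hasDerivAt hc x).deriv and 0 < 1 ≤ lm x. -/
theorem prim_strictMono (hc : Continuous lm) (hlow : ∀ u, 1 ≤ lm u) : StrictMono (prim lm) := by
  apply strictMono_of_deriv_pos
  intro x
  rw [(prim_hasDerivAt hc x).deriv]
  exact lt_of_lt_of_le one_pos (hlow x)

/-- IN2. Hint: for 0 ≤ x: x = ∫ 0..x 1 ≤ prim lm x (intervalIntegral.integral_mono_on). -/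
theorem prim_ge (hc : Continuous lm) (hlow : ∀ u, 1 ≤ lm u) {x : ℝ} (hx : 0 ≤ x) : x ≤ prim lm x := by
  have h1 : (∫ _t in (0:ℝ)..x, (1:ℝ)) ≤ ∫ t in (0:ℝ)..x, lm t :=
    intervalIntegral.integral_mono_on hx (continuous_const.intervalIntegrable _ _)
      (hc.intervalIntegrable _ _) (fun t _ => hlow t)
  have h2 : (∫ _t in (0:ℝ)..x, (1:ℝ)) = x := by simp
  unfold prim
  linarith

/-- IN3. Hint: for x ≤ 0: prim lm x = - ∫ x..0 lm ≤ -(0 - x) = x (integral_symm, integral_mono_on). -/
theorem prim_le (hc : Continuous lm) (hlow : ∀ u, 1 ≤ lm u) {x : ℝ} (hx : x ≤ 0) : prim lm x ≤ x := by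
  have h1 : (∫ _ in x..(0:ℝ), (1:ℝ)) ≤ ∫ t in x..(0:ℝ), lm t :=
    intervalIntegral.integral_mono_on hx (continuous_const.intervalIntegrable _ _)
      (hc.intervalIntegrable _ _) (fun u _ => hlow u)
  rw [intervalIntegral.integral_const, smul_eq_mul, mul_one] at h1
  unfold prim
  rw [intervalIntegral.integral_symm]
  linarith

/-- IN4. Hint: prim lm is continuous (prim_hasDerivAt), prim lm (-|s|) ≤ s ≤ prim lm |s| by IN2, IN3; intermediate
value theorem (intermediate_value_Icc, or mem_range_of_exists_le_of_exists_ge). -/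
theorem prim_surjective (hc : Continuous lm) (hlow : ∀ u, 1 ≤ lm u) :
    Function.Surjective (prim lm) := by
  intro s
  have hcont : Continuous (prim lm) :=
    continuous_iff_continuousAt.2 (fun x => (prim_hasDerivAt hc x).continuousAt)
  have h1 : prim lm (-|s|) ≤ s :=
    (prim_le hc hlow (by simp)).trans (neg_abs_le s)
  have h2 : s ≤ prim lm |s| := (le_abs_self s).trans (prim_ge hc hlow (abs_nonneg s))
  exact mem_range_of_exists_le_of_exists_ge hcont ⟨_, h1⟩ ⟨_, h2⟩

/-- IN5 (HARDEST of this file; may be doubled).  The smooth inverse of the primitive.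
Hint: e := (prim_strictMono ..).orderIsoOfSurjective _ (prim_surjective ..), g := e.symm, continuous
(e.symm.continuous or e.toHomeomorph).  HasDerivAt: HasDerivAt.of_local_left_inverse (continuity of g,
prim_hasDerivAt at g s, lm (g s) ≠ 0, prim lm (g y) = y for all y); 1 / x = x⁻¹.  Smoothness: either
OpenPartialHomeomorph.contDiffAt_symm_deriv applied to e.toHomeomorph.toOpenPartialHomeomorph, or by induction on n:
deriv g = fun s => 1 / lm (g s), contDiff_succ_iff_deriv, contDiff_infty. -/
theorem exists_inverse (hlm : ContDiff ℝ ∞ lm) (hlow : ∀ u, 1 ≤ lm u) :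
    ∃ g : ℝ → ℝ, ContDiff ℝ ∞ g ∧ (∀ s, prim lm (g s) = s) ∧
      ∀ s, HasDerivAt g (1 / lm (g s)) s := by
  have hc : Continuous lm := hlm.continuous
  set e := (prim_strictMono hc hlow).orderIsoOfSurjective _ (prim_surjective hc hlow) with he
  set g : ℝ → ℝ := fun s => e.symm s with hg
  have hgc : Continuous g := e.symm.continuous
  have hinv : ∀ s, prim lm (g s) = s := by
    intro s
    have := e.apply_symm_apply s
    exact this
  have hne : ∀ u, lm u ≠ 0 := fun u => by have := hlow u; intro h; linarith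
  have hd : ∀ s, HasDerivAt g (1 / lm (g s)) s := by
    intro s
    rw [one_div]
    exact HasDerivAt.of_local_left_inverse hgc.continuousAt (prim_hasDerivAt hc (g s)) (hne _)
      (Filter.Eventually.of_forall hinv)
  have hder : deriv g = fun s => 1 / lm (g s) := by
    funext s
    exact (hd s).deriv
  have hn : ∀ n : ℕ, ContDiff ℝ n g := by
    intro n
    induction n with
    | zero => exact contDiff_zero.2 hgc
    | succ n ih =>
      have e1 : ((n + 1 : ℕ) : WithTop ℕ∞) = (n : WithTop ℕ∞) + 1 := by push_cast; rfl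
      rw [e1, contDiff_succ_iff_deriv]
      refine ⟨fun s => (hd s).differentiableAt, ?_, ?_⟩
      · intro h
        exact absurd h (by simp)
      · rw [hder]
        exact ContDiff.div contDiff_const ((hlm.of_le (by exact_mod_cast le_top)).comp ih)
          (fun s => hne _)
  exact ⟨g, contDiff_infty.2 hn, hinv, hd⟩

/-- IN6. The time change.  Hint: g from exists_inverse, κ = g ∘ prim v.  Derivative: chain rule
(HasDerivAt.comp, prim_hasDerivAt), 1 / lm (g (prim v x)) * v x = v x / lm (κ x).  Shift: prim lm (κ x + 1) = prim lm (κ x) + prim lm 1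
= prim v x + prim v 1 = prim v (x + 1) = prim lm (κ (x + 1)) by prim_add_one twice; injectivity from prim_strictMono. -/
theorem exists_kappa (hlm : ContDiff ℝ ∞ lm) (plm : Function.Periodic lm 1) (hlow : ∀ u, 1 ≤ lm u)
    {v : ℝ → ℝ} (hv : ContDiff ℝ ∞ v) (pv : Function.Periodic v 1) (hint : prim lm 1 = prim v 1) :
    ∃ κ : ℝ → ℝ, ContDiff ℝ ∞ κ ∧ (∀ x, κ (x + 1) = κ x + 1) ∧
      ∀ x, HasDerivAt κ (v x / lm (κ x)) x := by
  obtain ⟨g, hg, hinv, hder⟩ := exists_inverse hlm hlow
  refine ⟨fun x => g (prim v x), hg.comp (prim_contDiff hv), ?_, ?_⟩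
  · intro x
    apply (prim_strictMono hlm.continuous hlow).injective
    rw [hinv, prim_add_one hlm.continuous plm, hinv, prim_add_one hv.continuous pv, hint]
  · intro x
    have h1 := (hder (prim v x)).comp x (prim_hasDerivAt hv.continuous x)
    have e : 1 / lm (g (prim v x)) * v x = v x / lm (g (prim v x)) := by ring
    rw [e] at h1
    exact h1

end Vale.Agent.P205.Tw
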