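import Mathlib

/-!
# P205, circle-invariant torus metrics with arbitrary twist: the equivariant map into `ℝ⁴`
-/

open scoped ContDiff InnerProductSpace Real
open MeasureTheory intervalIntegral

namespace Vale.Agent.P205.Tw

/-- The explicit map `(ρ1 e^{i(2πmy + a1)}, ρ2 e^{i(2πmy + a2)})`. -/
noncomputable def imm (ρ1 ρ2 a1 a2 : ℝ → ℝ) (m : ℝ) (p : ℝ × ℝ) : EuclideanSpace ℝ (Fin 4) :=
  !₂[ρ1 p.1 * Real.cos (2 * π * m * p.2 + a1 p.1), ρ1 p.1 * Real.sin (2 * π * m * p.2 + a1 p.1),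
    ρ2 p.1 * Real.cos (2 * π * m * p.2 + a2 p.1), ρ2 p.1 * Real.sin (2 * π * m * p.2 + a2 p.1)]

theorem imm_contDiff {ρ1 ρ2 a1 a2 : ℝ → ℝ} {m : ℝ} (h1 : ContDiff ℝ ∞ ρ1) (h2 : ContDiff ℝ ∞ ρ2)
    (h3 : ContDiff ℝ ∞ a1) (h4 : ContDiff ℝ ∞ a2) : ContDiff ℝ ∞ (imm ρ1 ρ2 a1 a2 m) := by
  rw [contDiff_euclidean]
  intro i
  have g1 : ContDiff ℝ ∞ (fun p : ℝ × ℝ => ρ1 p.1) := h1.comp contDiff_fst
  have g2 : ContDiff ℝ ∞ (fun p : ℝ × ℝ => ρ2 p.1) := h2.comp contDiff_fst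
  have g3 : ContDiff ℝ ∞ (fun p : ℝ × ℝ => a1 p.1) := h3.comp contDiff_fst
  have g4 : ContDiff ℝ ∞ (fun p : ℝ × ℝ => a2 p.1) := h4.comp contDiff_fst
  have g5 : ContDiff ℝ ∞ (fun p : ℝ × ℝ => p.2) := contDiff_snd
  fin_cases i <;> simp only [imm] <;> simp <;> fun_prop

theorem imm_inner {ρ1 ρ2 a1 a2 : ℝ → ℝ} {m : ℝ} {ρ1' ρ2' a1' a2' : ℝ → ℝ}
    (h1 : ∀ x, HasDerivAt ρ1 (ρ1' x) x) (h2 : ∀ x, HasDerivAt ρ2 (ρ2' x) x)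
    (h3 : ∀ x, HasDerivAt a1 (a1' x) x) (h4 : ∀ x, HasDerivAt a2 (a2' x) x) (p v w : ℝ × ℝ) :
    ⟪fderiv ℝ (imm ρ1 ρ2 a1 a2 m) p v, fderiv ℝ (imm ρ1 ρ2 a1 a2 m) p w⟫_ℝ =
      (ρ1' p.1 ^ 2 + ρ2' p.1 ^ 2) * v.1 * w.1 +
      ρ1 p.1 ^ 2 * (2 * π * m * v.2 + a1' p.1 * v.1) * (2 * π * m * w.2 + a1' p.1 * w.1) +
      ρ2 p.1 ^ 2 * (2 * π * m * v.2 + a2' p.1 * v.1) * (2 * π * m * w.2 + a2' p.1 * w.1) := by
  set fstL := ContinuousLinearMap.fst ℝ ℝ ℝ with hfstL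
  set sndL := ContinuousLinearMap.snd ℝ ℝ ℝ with hsndL
  have hR1 : HasFDerivAt (fun q : ℝ × ℝ => ρ1 q.1) (ρ1' p.1 • fstL) p :=
    (h1 p.1).comp_hasFDerivAt p hasFDerivAt_fst
  have hR2 : HasFDerivAt (fun q : ℝ × ℝ => ρ2 q.1) (ρ2' p.1 • fstL) p :=
    (h2 p.1).comp_hasFDerivAt p hasFDerivAt_fst
  have hA1 : HasFDerivAt (fun q : ℝ × ℝ => a1 q.1) (a1' p.1 • fstL) p :=
    (h3 p.1).comp_hasFDerivAt p hasFDerivAt_fst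
  have hA2 : HasFDerivAt (fun q : ℝ × ℝ => a2 q.1) (a2' p.1 • fstL) p :=
    (h4 p.1).comp_hasFDerivAt p hasFDerivAt_fst
  have hB1 : HasFDerivAt (fun q : ℝ × ℝ => 2 * π * m * q.2 + a1 q.1)
      ((2 * π * m) • sndL + a1' p.1 • fstL) p :=
    (hasFDerivAt_snd.const_mul (2 * π * m)).add hA1
  have hB2 : HasFDerivAt (fun q : ℝ × ℝ => 2 * π * m * q.2 + a2 q.1)
      ((2 * π * m) • sndL + a2' p.1 • fstL) p :=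
    (hasFDerivAt_snd.const_mul (2 * π * m)).add hA2
  have c0 := hR1.mul hB1.cos
  have c1 := hR1.mul hB1.sin
  have c2 := hR2.mul hB2.cos
  have c3 := hR2.mul hB2.sin
  have hΦ : DifferentiableAt ℝ (imm ρ1 ρ2 a1 a2 m) p := by
    rw [differentiableAt_euclidean]
    intro i
    fin_cases i
    · exact c0.differentiableAt
    · exact c1.differentiableAt
    · exact c2.differentiableAt
    · exact c3.differentiableAt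
  have key : ∀ i, HasFDerivAt (fun q => imm ρ1 ρ2 a1 a2 m q i)
      ((PiLp.proj 2 (fun _ : Fin 4 => ℝ) i) ∘L fderiv ℝ (imm ρ1 ρ2 a1 a2 m) p) p := by
    intro i
    exact ((PiLp.proj 2 (fun _ : Fin 4 => ℝ) i).hasFDerivAt).comp p hΦ.hasFDerivAt
  have e0 := (key 0).unique c0
  have e1 := (key 1).unique c1
  have e2 := (key 2).unique c2
  have e3 := (key 3).unique c3
  have f0 : ∀ u, (fderiv ℝ (imm ρ1 ρ2 a1 a2 m) p u) 0 = _ := fun u => DFunLike.congr_fun e0 u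
  have f1 : ∀ u, (fderiv ℝ (imm ρ1 ρ2 a1 a2 m) p u) 1 = _ := fun u => DFunLike.congr_fun e1 u
  have f2 : ∀ u, (fderiv ℝ (imm ρ1 ρ2 a1 a2 m) p u) 2 = _ := fun u => DFunLike.congr_fun e2 u
  have f3 : ∀ u, (fderiv ℝ (imm ρ1 ρ2 a1 a2 m) p u) 3 = _ := fun u => DFunLike.congr_fun e3 u
  rw [PiLp.inner_apply, Fin.sum_univ_four]
  simp only [f0, f1, f2, f3]
  simp [hfstL, hsndL]
  have hcs := Real.sin_sq_add_cos_sq (2 * π * m * p.2 + a1 p.1)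
  have hcs2 := Real.sin_sq_add_cos_sq (2 * π * m * p.2 + a2 p.1)
  generalize Real.sin (2 * π * m * p.2 + a1 p.1) = sA at *
  generalize Real.cos (2 * π * m * p.2 + a1 p.1) = cA at *
  generalize Real.sin (2 * π * m * p.2 + a2 p.1) = sB at *
  generalize Real.cos (2 * π * m * p.2 + a2 p.1) = cB at *
  linear_combination (ρ1 p.1 ^ 2 * (2 * π * m * v.2 + a1' p.1 * v.1) * (2 * π * m * w.2 + a1' p.1 * w.1)
    + ρ1' p.1 ^ 2 * v.1 * w.1) * hcs +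
    (ρ2 p.1 ^ 2 * (2 * π * m * v.2 + a2' p.1 * v.1) * (2 * π * m * w.2 + a2' p.1 * w.1)
    + ρ2' p.1 ^ 2 * v.1 * w.1) * hcs2

/-- The equivariant criterion. -/
theorem core (E F G : ℝ → ℝ) (m : ℕ) (ρ1 ρ2 a1 a2 ρ1' ρ2' a1' a2' : ℝ → ℝ)
    (s1 : ContDiff ℝ ∞ ρ1) (s2 : ContDiff ℝ ∞ ρ2) (s3 : ContDiff ℝ ∞ a1) (s4 : ContDiff ℝ ∞ a2)
    (h1 : ∀ x, HasDerivAt ρ1 (ρ1' x) x) (h2 : ∀ x, HasDerivAt ρ2 (ρ2' x) x)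
    (h3 : ∀ x, HasDerivAt a1 (a1' x) x) (h4 : ∀ x, HasDerivAt a2 (a2' x) x)
    (p1 : ∀ x, ρ1 (x + 1) = ρ1 x) (p2 : ∀ x, ρ2 (x + 1) = ρ2 x)
    (p3 : ∃ z : ℤ, ∀ x, a1 (x + 1) = a1 x + z * (2 * π))
    (p4 : ∃ z : ℤ, ∀ x, a2 (x + 1) = a2 x + z * (2 * π))
    (hG : ∀ x, (2 * π * m) ^ 2 * (ρ1 x ^ 2 + ρ2 x ^ 2) = G x)
    (hF : ∀ x, 2 * π * m * (ρ1 x ^ 2 * a1' x + ρ2 x ^ 2 * a2' x) = F x)
    (hE : ∀ x, ρ1' x ^ 2 + ρ2' x ^ 2 + ρ1 x ^ 2 * a1' x ^ 2 + ρ2 x ^ 2 * a2' x ^ 2 = E x) :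
    ∃ Φ : ℝ × ℝ → EuclideanSpace ℝ (Fin 4), ContDiff ℝ ∞ Φ ∧
      (∀ x y, Φ (x + 1, y) = Φ (x, y)) ∧ (∀ x y, Φ (x, y + 1) = Φ (x, y)) ∧
      ∀ p v w : ℝ × ℝ, ⟪fderiv ℝ Φ p v, fderiv ℝ Φ p w⟫_ℝ =
        E p.1 * v.1 * w.1 + F p.1 * (v.1 * w.2 + v.2 * w.1) + G p.1 * v.2 * w.2 := by
  obtain ⟨z1, hz1⟩ := p3
  obtain ⟨z2, hz2⟩ := p4
  refine ⟨imm ρ1 ρ2 a1 a2 m, imm_contDiff s1 s2 s3 s4, ?_, ?_, ?_⟩
  · intro x y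
    have e1 : 2 * π * m * y + a1 (x + 1) = 2 * π * m * y + a1 x + z1 * (2 * π) := by
      rw [hz1]; ring
    have e2 : 2 * π * m * y + a2 (x + 1) = 2 * π * m * y + a2 x + z2 * (2 * π) := by
      rw [hz2]; ring
    simp only [imm, e1, e2, p1, p2, Real.cos_add_int_mul_two_pi, Real.sin_add_int_mul_two_pi]
  · intro x y
    have e1 : 2 * π * m * (y + 1) + a1 x = 2 * π * m * y + a1 x + (m : ℝ) * (2 * π) := by ring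
    have e2 : 2 * π * m * (y + 1) + a2 x = 2 * π * m * y + a2 x + (m : ℝ) * (2 * π) := by ring
    simp only [imm, e1, e2, Real.cos_add_nat_mul_two_pi, Real.sin_add_nat_mul_two_pi]
  · intro p v w
    rw [imm_inner h1 h2 h3 h4]
    rw [← hG p.1, ← hF p.1, ← hE p.1]
    ring

end Vale.Agent.P205.Tw
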