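import Vale.Agent.P205.Tw.Stair
import Vale.Agent.P205.Tw.Data
import Vale.Agent.P205.Tw.Map

/-!
# P205: every circle-invariant smooth metric on the torus immerses isometrically in `ℝ⁴`
-/

open scoped ContDiff InnerProductSpace Real
open MeasureTheory intervalIntegral

namespace Vale.Agent.P205.Tw

theorem alg_E (r r' v ν c s T' Rv lamv k : ℝ) (hcs : s ^ 2 + c ^ 2 = 1) (hc : c ≠ 0) (hs : s ≠ 0)
    (hR : Rv ^ 2 + T' ^ 2 = lamv ^ 2) (hk : k * lamv = v) :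
    (r' * c + r * (-s * (T' * k))) ^ 2 + (r' * s + r * (c * (T' * k))) ^ 2
      + (r * c) ^ 2 * (ν + s / c * Rv * k) ^ 2 + (r * s) ^ 2 * (ν - c / s * Rv * k) ^ 2
      = r' ^ 2 + r ^ 2 * ν ^ 2 + r ^ 2 * v ^ 2 := by
  subst hk
  have e1 : (r * c) ^ 2 * (ν + s / c * Rv * k) ^ 2 = r ^ 2 * (c * ν + s * Rv * k) ^ 2 := by
    rw [← mul_pow, ← mul_pow]
    congr 1
    field_simp
  have e2 : (r * s) ^ 2 * (ν - c / s * Rv * k) ^ 2 = r ^ 2 * (s * ν - c * Rv * k) ^ 2 := by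
    rw [← mul_pow, ← mul_pow]
    congr 1
    field_simp
  rw [e1, e2]
  linear_combination (r' ^ 2 + r ^ 2 * T' ^ 2 * k ^ 2 + r ^ 2 * ν ^ 2 + r ^ 2 * Rv ^ 2 * k ^ 2) * hcs
    + r ^ 2 * k ^ 2 * hR

theorem alg_F (r ν c s Rv k : ℝ) (hcs : s ^ 2 + c ^ 2 = 1) (hc : c ≠ 0) (hs : s ≠ 0) :
    (r * c) ^ 2 * (ν + s / c * Rv * k) + (r * s) ^ 2 * (ν - c / s * Rv * k) = r ^ 2 * ν := by
  have e1 : (r * c) ^ 2 * (ν + s / c * Rv * k) = r ^ 2 * (c ^ 2 * ν + c * s * Rv * k) := by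
    field_simp
  have e2 : (r * s) ^ 2 * (ν - c / s * Rv * k) = r ^ 2 * (s ^ 2 * ν - c * s * Rv * k) := by
    field_simp
  rw [e1, e2]
  linear_combination (r ^ 2 * ν) * hcs

theorem main (E F G : ℝ → ℝ)
    (hE : ContDiff ℝ ∞ E) (hF : ContDiff ℝ ∞ F) (hG : ContDiff ℝ ∞ G)
    (pE : Function.Periodic E 1) (pF : Function.Periodic F 1) (pG : Function.Periodic G 1)
    (posG : ∀ x, 0 < G x) (posdet : ∀ x, 0 < E x * G x - F x ^ 2) :
    ∃ Φ : ℝ × ℝ → EuclideanSpace ℝ (Fin 4), ContDiff ℝ ∞ Φ ∧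
      (∀ x y, Φ (x + 1, y) = Φ (x, y)) ∧ (∀ x y, Φ (x, y + 1) = Φ (x, y)) ∧
      ∀ p v w : ℝ × ℝ, ⟪fderiv ℝ Φ p v, fderiv ℝ Φ p w⟫_ℝ =
        E p.1 * v.1 * w.1 + F p.1 * (v.1 * w.2 + v.2 * w.1) + G p.1 * v.2 * w.2 := by
  obtain ⟨m, r, r', v, hm, hr, hrd, pr, hv, pv, hG2, hE2, hL⟩ :=
    exists_data hE hF hG pE pF pG posG posdet (dl + 8 * π)
  have hGne : ∀ x, G x ≠ 0 := fun x => (posG x).ne'
  set ν : ℝ → ℝ := fun x => 2 * π * m * (F x / G x) with hν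
  have hνc : ContDiff ℝ ∞ ν := contDiff_const.mul (hF.div hG hGne)
  have pν : Function.Periodic ν 1 := fun x => by simp only [hν, pF x, pG x]
  obtain ⟨c1, c2, c3, z1, z2, k1, k2, k3, eL, eA, eB⟩ := solve (prim v 1) (-prim ν 1) (prim ν 1) hL
  have hlam1 : prim (lam c1 c2 c3) 1 = prim v 1 := by
    unfold prim at eL ⊢
    rw [int_lam, eL]
  obtain ⟨κ, hκ, κ1, κd⟩ := exists_kappa (lam_contDiff c1 c2 c3) (lam_periodic c1 c2 c3)
    (lam_ge k1 k2 k3) hv pv hlam1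
  set f1 : ℝ → ℝ := fun u => tn u * RR c1 c2 c3 u with hf1
  set f2 : ℝ → ℝ := fun u => ct u * RR c1 c2 c3 u with hf2
  have hf1c : ContDiff ℝ ∞ f1 := tn_ct_contDiff.1.mul (RR_contDiff c1 c2 c3)
  have hf2c : ContDiff ℝ ∞ f2 := tn_ct_contDiff.2.mul (RR_contDiff c1 c2 c3)
  have pf1 : Function.Periodic f1 1 := fun u => by
    simp only [hf1, tn_ct_periodic.1 u, RR_periodic c1 c2 c3 u]
  have pf2 : Function.Periodic f2 1 := fun u => by
    simp only [hf2, tn_ct_periodic.2 u, RR_periodic c1 c2 c3 u]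
  have hf1i : prim f1 1 = -prim ν 1 + 2 * π * z1 := by
    rw [← eA, ← int_tn]; rfl
  have hf2i : prim f2 1 = prim ν 1 + 2 * π * z2 := by
    rw [← eB, ← int_ct]; rfl
  have hThd : ∀ u, HasDerivAt Th (deriv Th u) u := fun u =>
    ((contDiff_infty_iff_deriv.1 Th_contDiff).1 u).hasDerivAt
  set k : ℝ → ℝ := fun x => v x / lam c1 c2 c3 (κ x) with hk
  have hTκ : ∀ x, HasDerivAt (fun x => Th (κ x)) (deriv Th (κ x) * k x) x := fun x =>
    (hThd (κ x)).comp x (κd x)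
  have hTκc : ContDiff ℝ ∞ (fun x => Th (κ x)) := Th_contDiff.comp hκ
  have hlam0 : ∀ u, lam c1 c2 c3 u ≠ 0 := fun u => by
    have := lam_ge k1 k2 k3 u
    linarith
  refine core E F G m (fun x => r x * Real.cos (Th (κ x))) (fun x => r x * Real.sin (Th (κ x)))
    (fun x => prim ν x + prim f1 (κ x)) (fun x => prim ν x - prim f2 (κ x))
    (fun x => r' x * Real.cos (Th (κ x)) + r x * (-Real.sin (Th (κ x)) * (deriv Th (κ x) * k x)))
    (fun x => r' x * Real.sin (Th (κ x)) + r x * (Real.cos (Th (κ x)) * (deriv Th (κ x) * k x)))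
    (fun x => ν x + f1 (κ x) * k x) (fun x => ν x - f2 (κ x) * k x)
    (hr.mul (Real.contDiff_cos.comp hTκc)) (hr.mul (Real.contDiff_sin.comp hTκc))
    ((prim_contDiff hνc).add ((prim_contDiff hf1c).comp hκ))
    ((prim_contDiff hνc).sub ((prim_contDiff hf2c).comp hκ))
    (fun x => (hrd x).mul (hTκ x).cos) (fun x => (hrd x).mul (hTκ x).sin)
    (fun x => (prim_hasDerivAt hνc.continuous x).add
      ((prim_hasDerivAt hf1c.continuous (κ x)).comp x (κd x)))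
    (fun x => (prim_hasDerivAt hνc.continuous x).sub
      ((prim_hasDerivAt hf2c.continuous (κ x)).comp x (κd x)))
    ?_ ?_ ?_ ?_ ?_ ?_ ?_
  · intro x
    simp only [pr x, κ1 x, Th_periodic (κ x)]
  · intro x
    simp only [pr x, κ1 x, Th_periodic (κ x)]
  · refine ⟨z1, fun x => ?_⟩
    simp only [κ1 x]
    rw [prim_add_one hνc.continuous pν, prim_add_one hf1c.continuous pf1, hf1i]
    ring
  · refine ⟨-z2, fun x => ?_⟩
    simp only [κ1 x]
    rw [prim_add_one hνc.continuous pν, prim_add_one hf2c.continuous pf2, hf2i]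
    push_cast
    ring
  · intro x
    have hcs := Real.sin_sq_add_cos_sq (Th (κ x))
    rw [← hG2 x]
    linear_combination ((2 * π * m) ^ 2 * r x ^ 2) * hcs
  · intro x
    have hcs := Real.sin_sq_add_cos_sq (Th (κ x))
    have hp := cos_sin_pos (κ x)
    have := alg_F (r x) (ν x) (Real.cos (Th (κ x))) (Real.sin (Th (κ x))) (RR c1 c2 c3 (κ x)) (k x)
      hcs hp.1.ne' hp.2.ne'
    simp only [hf1, hf2, tn, ct]
    rw [this]
    have h2 := hG2 x
    simp only [hν]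
    have := hGne x
    field_simp
    linear_combination (F x) * h2
  · intro x
    have hcs := Real.sin_sq_add_cos_sq (Th (κ x))
    have hp := cos_sin_pos (κ x)
    have hkl : k x * lam c1 c2 c3 (κ x) = v x := by
      simp only [hk]
      field_simp [hlam0 (κ x)]
    have := alg_E (r x) (r' x) (v x) (ν x) (Real.cos (Th (κ x))) (Real.sin (Th (κ x)))
      (deriv Th (κ x)) (RR c1 c2 c3 (κ x)) (lam c1 c2 c3 (κ x)) (k x) hcs hp.1.ne' hp.2.ne'
      (RR_sq c1 c2 c3 (κ x)) hkl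
    simp only [hf1, hf2, tn, ct]
    rw [this, ← hE2 x]
    have h2 := hG2 x
    simp only [hν]
    have := hGne x
    field_simp
    linear_combination (F x ^ 2) * h2

end Vale.Agent.P205.Tw
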