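import Mathlib

/-!
# P205, circle-invariant torus metrics with arbitrary twist: the universal periodic staircase

`Th` is a fixed smooth 1-periodic function with three plateaus (levels `al1, al2, al3` with tangent
`1, 2, 1/2`); `b1, b2, b3` are smooth 1-periodic bumps supported inside the plateaus.
-/

open scoped ContDiff Real
open MeasureTheory intervalIntegral

namespace Vale.Agent.P205.Tw

/-- the smooth step: 0 on `x ≤ 0`, 1 on `1 ≤ x` -/
noncomputable abbrev S : ℝ → ℝ := Real.smoothTransition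

/-- the periodic clock -/
noncomputable def ww (u : ℝ) : ℝ := Real.sin (2 * π * u)

noncomputable def al1 : ℝ := π / 4
noncomputable def al2 : ℝ := Real.arctan 2
noncomputable def al3 : ℝ := Real.arctan (1 / 2)

/-- the staircase -/
noncomputable def Th (u : ℝ) : ℝ :=
  al1 + (al2 - al1) * S (4 * ww u - 1) + (al3 - al1) * S (-4 * ww u - 1)

noncomputable def b1 (u : ℝ) : ℝ := S (1 - 16 * ww u ^ 2)
noncomputable def b2 (u : ℝ) : ℝ := S (4 * ww u - 2)
noncomputable def b3 (u : ℝ) : ℝ := S (-4 * ww u - 2)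

/-- tangent and cotangent of the staircase -/
noncomputable def tn (u : ℝ) : ℝ := Real.sin (Th u) / Real.cos (Th u)
noncomputable def ct (u : ℝ) : ℝ := Real.cos (Th u) / Real.sin (Th u)

/-- ST0. `ww` is smooth. Hint: unfold ww; fun_prop (Real.contDiff_sin.comp ...). -/
theorem ww_contDiff : ContDiff ℝ ∞ ww := by
  unfold ww
  exact Real.contDiff_sin.comp (contDiff_const.mul contDiff_id)

/-- ST1. `ww` is 1-periodic. Hint: sin (2 pi (u+1)) = sin (2 pi u + 2 pi), Real.sin_add_two_pi. -/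
theorem ww_periodic : Function.Periodic ww 1 := by
  intro u
  unfold ww
  rw [mul_add, mul_one, Real.sin_add_two_pi]

/-- ST2. Hint: Real.smoothTransition.contDiff composed with ww_contDiff; unfold Th. -/
theorem Th_contDiff : ContDiff ℝ ∞ Th := by
  unfold Th
  have h1 : ContDiff ℝ ∞ fun u => S (4 * ww u - 1) :=
    Real.smoothTransition.contDiff.comp ((contDiff_const.mul ww_contDiff).sub contDiff_const)
  have h2 : ContDiff ℝ ∞ fun u => S (-4 * ww u - 1) :=
    Real.smoothTransition.contDiff.comp ((contDiff_const.mul ww_contDiff).sub contDiff_const)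
  exact (contDiff_const.add (contDiff_const.mul h1)).add (contDiff_const.mul h2)

/-- ST3. Hint: unfold Th, rewrite with ww_periodic. -/
theorem Th_periodic : Function.Periodic Th 1 := by
  intro u
  unfold Th
  rw [ww_periodic u]

/-- ST4. `al3 < al1 < al2`, `0 < al3`, `al2 < pi/2`.  Hint: al1 = arctan 1 (Real.arctan_one),
Real.arctan_strictMono, Real.arctan_pos, Real.arctan_lt_pi_div_two. -/
theorem al_order : 0 < al3 ∧ al3 < al1 ∧ al1 < al2 ∧ al2 < π / 2 := by
  unfold al1 al2 al3
  rw [← Real.arctan_one]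
  refine ⟨Real.arctan_pos.2 (by norm_num), Real.arctan_strictMono (by norm_num),
    Real.arctan_strictMono (by norm_num), Real.arctan_lt_pi_div_two _⟩

/-- ST5. Hint: S takes values in [0,1] (Real.smoothTransition.nonneg, .le_one), al_order; so
al3 ≤ Th u ≤ al2 (nlinarith). -/
theorem Th_mem (u : ℝ) : 0 < Th u ∧ Th u < π / 2 := by
  obtain ⟨h0, h1, h2, h3⟩ := al_order
  have a1 := Real.smoothTransition.nonneg (4 * ww u - 1)
  have a2 := Real.smoothTransition.le_one (4 * ww u - 1)
  have b1 := Real.smoothTransition.nonneg (-4 * ww u - 1)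
  have b2 := Real.smoothTransition.le_one (-4 * ww u - 1)
  unfold Th
  constructor
  · have e1 : 0 ≤ (al2 - al1) * S (4 * ww u - 1) := mul_nonneg (by linarith) a1
    have e2 : (al3 - al1) ≤ (al3 - al1) * S (-4 * ww u - 1) := by
      nlinarith
    linarith
  · have e1 : (al2 - al1) * S (4 * ww u - 1) ≤ al2 - al1 := by nlinarith
    have e2 : (al3 - al1) * S (-4 * ww u - 1) ≤ 0 := mul_nonpos_of_nonpos_of_nonneg (by linarith) b1
    linarith

/-- ST6. Hint: Real.cos_pos_of_mem_Ioo, Real.sin_pos_of_pos_of_lt_pi with Th_mem. -/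
theorem cos_sin_pos (u : ℝ) : 0 < Real.cos (Th u) ∧ 0 < Real.sin (Th u) := by
  obtain ⟨h0, h1⟩ := Th_mem u
  have hpi := Real.pi_pos
  exact ⟨Real.cos_pos_of_mem_Ioo ⟨by linarith, h1⟩,
    Real.sin_pos_of_pos_of_lt_pi h0 (by linarith)⟩

/-- ST7. -/
theorem b_contDiff : ContDiff ℝ ∞ b1 ∧ ContDiff ℝ ∞ b2 ∧ ContDiff ℝ ∞ b3 := by
  have hw := ww_contDiff
  have hS : ContDiff ℝ ∞ Real.smoothTransition := Real.smoothTransition.contDiff
  refine ⟨?_, ?_, ?_⟩
  · exact hS.comp (contDiff_const.sub (contDiff_const.mul (hw.pow 2)))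
  · exact hS.comp ((contDiff_const.mul hw).sub contDiff_const)
  · exact hS.comp ((contDiff_const.mul hw).sub contDiff_const)

/-- ST8. -/
theorem b_periodic : Function.Periodic b1 1 ∧ Function.Periodic b2 1 ∧ Function.Periodic b3 1 := by
  refine ⟨fun u => ?_, fun u => ?_, fun u => ?_⟩
  · unfold b1; rw [ww_periodic u]
  · unfold b2; rw [ww_periodic u]
  · unfold b3; rw [ww_periodic u]

/-- ST9. Hint: Real.smoothTransition.nonneg. -/
theorem b_nonneg (u : ℝ) : 0 ≤ b1 u ∧ 0 ≤ b2 u ∧ 0 ≤ b3 u := by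
  exact ⟨Real.smoothTransition.nonneg _, Real.smoothTransition.nonneg _,
    Real.smoothTransition.nonneg _⟩

/-- the masses of the bumps -/
noncomputable def n1 : ℝ := ∫ u in (0:ℝ)..1, b1 u
noncomputable def n2 : ℝ := ∫ u in (0:ℝ)..1, b2 u
noncomputable def n3 : ℝ := ∫ u in (0:ℝ)..1, b3 u

/-- ST10. Hint: intervalIntegral.integral_pos (continuity from b_contDiff, b_nonneg), positive at u = 0:
ww 0 = 0, S 1 = 1 (Real.smoothTransition.one). -/
theorem n1_pos : 0 < n1 := by
  unfold n1
  apply intervalIntegral.integral_pos zero_lt_one b_contDiff.1.continuous.continuousOn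
    (fun x _ => (b_nonneg x).1)
  refine ⟨0, ⟨le_refl _, zero_le_one⟩, ?_⟩
  have h0 : ww 0 = 0 := by unfold ww; simp
  have h1 : b1 0 = 1 := by
    unfold b1
    rw [h0]
    norm_num [Real.smoothTransition.one]
  rw [h1]
  exact zero_lt_one

/-- ST11. Hint: as ST10, positive at u = 1/4: ww (1/4) = sin (pi/2) = 1, S 2 = 1
(Real.smoothTransition.one_of_one_le). -/
theorem n2_pos : 0 < n2 := by
  unfold n2
  have hc : Continuous b2 := b_contDiff.2.1.continuous
  apply intervalIntegral.integral_pos (by norm_num) hc.continuousOn (fun x _ => (b_nonneg x).2.1)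
  refine ⟨1 / 4, ⟨by norm_num, by norm_num⟩, ?_⟩
  have hw : ww (1 / 4) = 1 := by
    unfold ww
    have e : 2 * π * (1 / 4) = π / 2 := by ring
    rw [e, Real.sin_pi_div_two]
  unfold b2 S
  rw [hw, Real.smoothTransition.one_of_one_le (by norm_num)]
  norm_num

/-- ST12. Hint: as ST10, positive at u = 3/4: ww (3/4) = sin (3 pi/2) = -1, S 2 = 1. -/
theorem n3_pos : 0 < n3 := by
  unfold n3
  apply intervalIntegral.integral_pos (by norm_num)
  · exact b_contDiff.2.2.continuous.continuousOn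
  · intro x _
    exact (b_nonneg x).2.2
  · refine ⟨3 / 4, ⟨by norm_num, by norm_num⟩, ?_⟩
    have hw : ww (3 / 4) = -1 := by
      unfold ww
      have : 2 * π * (3 / 4) = π / 2 + π := by ring
      rw [this, Real.sin_add_pi, Real.sin_pi_div_two]
    unfold b3
    rw [hw]
    have h1 : S (-4 * -1 - 2) = 1 := Real.smoothTransition.one_of_one_le (by norm_num)
    rw [h1]
    norm_num

/-- ST13. On the support of `b1` (where `|ww| < 1/4`) the staircase is locally constant `= al1`.
Hint: b1 u ≠ 0 gives 0 < 1 - 16 ww^2 (Real.smoothTransition.zero_of_nonpos), so -1/4 < ww u < 1/4; by continuity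
of ww this holds near u; there both S terms vanish (zero_of_nonpos). -/
theorem b1_supp {u : ℝ} (h : b1 u ≠ 0) : ∀ᶠ y in nhds u, Th y = al1 := by
  have hc : Continuous ww := ww_contDiff.continuous
  have h1 : 0 < 1 - 16 * ww u ^ 2 := by
    by_contra hn
    exact h (Real.smoothTransition.zero_of_nonpos (not_lt.1 hn))
  have hc2 : Continuous fun y => 1 - 16 * ww y ^ 2 :=
    continuous_const.sub (continuous_const.mul (hc.pow 2))
  have h2 : ∀ᶠ y in nhds u, 0 < 1 - 16 * ww y ^ 2 :=
    hc2.continuousAt.eventually (lt_mem_nhds h1)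
  filter_upwards [h2] with y hy
  have a1 : 4 * ww y - 1 ≤ 0 := by
    by_contra hn
    nlinarith [not_le.1 hn]
  have a2 : -4 * ww y - 1 ≤ 0 := by
    by_contra hn
    nlinarith [not_le.1 hn]
  have e1 : S (4 * ww y - 1) = 0 := Real.smoothTransition.zero_of_nonpos a1
  have e2 : S (-4 * ww y - 1) = 0 := Real.smoothTransition.zero_of_nonpos a2
  unfold Th
  rw [e1, e2]
  ring

/-- ST14. Hint: b2 u ≠ 0 gives 1/2 < ww u; near u: S (4 ww - 1) = 1 (one_of_one_le), S (-4 ww - 1) = 0. -/
theorem b2_supp {u : ℝ} (h : b2 u ≠ 0) : ∀ᶠ y in nhds u, Th y = al2 := by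
  have hc : Continuous ww := ww_contDiff.continuous
  have h1 : 1 / 2 < ww u := by
    by_contra hn
    have : 4 * ww u - 2 ≤ 0 := by linarith [not_lt.1 hn]
    exact h (Real.smoothTransition.zero_of_nonpos this)
  have h2 : ∀ᶠ y in nhds u, 1 / 2 < ww y := hc.continuousAt.eventually (lt_mem_nhds h1)
  filter_upwards [h2] with y hy
  have e1 : S (4 * ww y - 1) = 1 := Real.smoothTransition.one_of_one_le (by linarith)
  have e2 : S (-4 * ww y - 1) = 0 := Real.smoothTransition.zero_of_nonpos (by linarith)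
  unfold Th
  rw [e1, e2]
  ring

/-- ST15. Hint: b3 u ≠ 0 gives ww u < -1/2; near u: S (4 ww - 1) = 0, S (-4 ww - 1) = 1. -/
theorem b3_supp {u : ℝ} (h : b3 u ≠ 0) : ∀ᶠ y in nhds u, Th y = al3 := by
  have hw : ww u < -(1 / 2) := by
    by_contra hc
    push Not at hc
    apply h
    unfold b3
    exact Real.smoothTransition.zero_of_nonpos (by linarith)
  have hcont : Continuous ww := ww_contDiff.continuous
  have hev : ∀ᶠ y in nhds u, ww y < -(1 / 2) :=
    hcont.continuousAt.eventually (Iio_mem_nhds hw)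
  filter_upwards [hev] with y hy
  unfold Th S
  rw [Real.smoothTransition.zero_of_nonpos (by linarith : 4 * ww y - 1 ≤ 0),
    Real.smoothTransition.one_of_one_le (by linarith : 1 ≤ -4 * ww y - 1)]
  ring

/-- ST16. Hint: a function that is locally constant near u has derivative 0
(Filter.EventuallyEq.deriv_eq, deriv_const); use b1_supp, b2_supp, b3_supp. -/
theorem deriv_Th_eq_zero {u : ℝ} (h : b1 u ≠ 0 ∨ b2 u ≠ 0 ∨ b3 u ≠ 0) : deriv Th u = 0 := by
  have key : ∀ c : ℝ, (∀ᶠ y in nhds u, Th y = c) → deriv Th u = 0 := by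
    intro c hc
    have h1 : Th =ᶠ[nhds u] fun _ => c := hc
    rw [h1.deriv_eq, deriv_const]
  rcases h with h | h | h
  · exact key _ (b1_supp h)
  · exact key _ (b2_supp h)
  · exact key _ (b3_supp h)

/-- ST17. Hint: (b1_supp h).self_of_nhds; sin (pi/4) = cos (pi/4). -/
theorem tn_ct_b1 {u : ℝ} (h : b1 u ≠ 0) : tn u = 1 ∧ ct u = 1 := by
  have hT : Th u = al1 := (b1_supp h).self_of_nhds
  have hs : (Real.sqrt 2 / 2 : ℝ) ≠ 0 := by
    have : (0 : ℝ) < Real.sqrt 2 := Real.sqrt_pos.2 (by norm_num)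
    positivity
  unfold tn ct
  rw [hT]
  unfold al1
  rw [Real.sin_pi_div_four, Real.cos_pi_div_four]
  exact ⟨div_self hs, div_self hs⟩

/-- ST18. Hint: (b2_supp h).self_of_nhds; Real.sin_arctan, Real.cos_arctan (or Real.tan_arctan with
Real.tan_eq_sin_div_cos). -/
theorem tn_ct_b2 {u : ℝ} (h : b2 u ≠ 0) : tn u = 2 ∧ ct u = 1 / 2 := by
  have hT : Th u = al2 := (b2_supp h).self_of_nhds
  have hc : 0 < Real.cos (Real.arctan 2) := Real.cos_arctan_pos 2
  have ht : Real.sin (Real.arctan 2) / Real.cos (Real.arctan 2) = 2 := by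
    rw [← Real.tan_eq_sin_div_cos, Real.tan_arctan]
  have hs : Real.sin (Real.arctan 2) = 2 * Real.cos (Real.arctan 2) := by
    rw [div_eq_iff hc.ne'] at ht
    exact ht
  unfold tn ct
  rw [hT]
  unfold al2
  refine ⟨ht, ?_⟩
  rw [hs]
  field_simp

/-- ST19. Hint: as ST18. -/
theorem tn_ct_b3 {u : ℝ} (h : b3 u ≠ 0) : tn u = 1 / 2 ∧ ct u = 2 := by
  have hT : Th u = al3 := (b3_supp h).self_of_nhds
  have hc : 0 < Real.cos (Real.arctan (1 / 2)) := Real.cos_arctan_pos _
  have ht : Real.sin (Real.arctan (1 / 2)) / Real.cos (Real.arctan (1 / 2)) = 1 / 2 := by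
    rw [← Real.tan_eq_sin_div_cos, Real.tan_arctan]
  have hs : Real.sin (Real.arctan (1 / 2)) = 1 / 2 * Real.cos (Real.arctan (1 / 2)) := by
    rw [div_eq_iff hc.ne'] at ht
    exact ht
  unfold tn ct
  rw [hT]
  unfold al3
  refine ⟨ht, ?_⟩
  rw [hs]
  field_simp

/-- ST20. Hint: quotient of smooth functions, denominators nonzero by cos_sin_pos (ContDiff.div). -/
theorem tn_ct_contDiff : ContDiff ℝ ∞ tn ∧ ContDiff ℝ ∞ ct := by
  have hs : ContDiff ℝ ∞ (fun u => Real.sin (Th u)) := Real.contDiff_sin.comp Th_contDiff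
  have hc : ContDiff ℝ ∞ (fun u => Real.cos (Th u)) := Real.contDiff_cos.comp Th_contDiff
  constructor
  · unfold tn
    exact hs.div hc (fun u => (cos_sin_pos u).1.ne')
  · unfold ct
    exact hc.div hs (fun u => (cos_sin_pos u).2.ne')

/-- ST21. -/
theorem tn_ct_periodic : Function.Periodic tn 1 ∧ Function.Periodic ct 1 := by
  constructor
  · intro u
    unfold tn
    rw [Th_periodic u]
  · intro u
    unfold ct
    rw [Th_periodic u]

/-- ST22. the derivative of a 1-periodic function is 1-periodic.  Hint: deriv_comp_add_const. -/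
theorem periodic_deriv {h : ℝ → ℝ} (hp : Function.Periodic h 1) : Function.Periodic (deriv h) 1 := by
  intro x
  have : (fun y => h (y + 1)) = h := funext hp
  calc deriv h (x + 1) = deriv (fun y => h (y + 1)) x := (deriv_comp_add_const h 1 x).symm
    _ = deriv h x := by rw [this]

/-- ST23. A bound for the slope of the staircase.  Hint: deriv Th is continuous (Th_contDiff,
contDiff_infty_iff_deriv) and 1-periodic, so bounded: |deriv Th u| ≤ C on [0,1]
(IsCompact.exists_bound_of_continuousOn, Function.Periodic.exists_mem_Ico₀); take δ = |C| + 1. -/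
theorem exists_delta : ∃ δ : ℝ, 1 ≤ δ ∧ ∀ u, deriv Th u ^ 2 + 1 ≤ δ ^ 2 := by
  have hc : Continuous (deriv Th) := (contDiff_infty_iff_deriv.1 Th_contDiff).2.continuous
  have hp : Function.Periodic (deriv Th) 1 := periodic_deriv Th_periodic
  obtain ⟨C, hC⟩ := isCompact_Icc.exists_bound_of_continuousOn
    (hc.continuousOn (s := Set.Icc (0 : ℝ) 1))
  refine ⟨|C| + 1, by linarith [abs_nonneg C], ?_⟩
  intro u
  obtain ⟨y, hy, hyu⟩ := hp.exists_mem_Ico₀ one_pos u
  have h1 : ‖deriv Th y‖ ≤ C := hC y ⟨hy.1, hy.2.le⟩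
  rw [hyu]
  rw [Real.norm_eq_abs] at h1
  have h2 : |deriv Th y| ≤ |C| := h1.trans (le_abs_self C)
  have h3 : deriv Th y ^ 2 ≤ |C| ^ 2 := by
    rw [← sq_abs (deriv Th y)]
    exact pow_le_pow_left₀ (abs_nonneg _) h2 2
  nlinarith [abs_nonneg C]

noncomputable def dl : ℝ := Classical.choose exists_delta

theorem dl_one : 1 ≤ dl := (Classical.choose_spec exists_delta).1

theorem dl_spec (u : ℝ) : deriv Th u ^ 2 + 1 ≤ dl ^ 2 := (Classical.choose_spec exists_delta).2 u

/-- the horizontal speed on the transitions -/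
noncomputable def R0 (u : ℝ) : ℝ := √(dl ^ 2 - deriv Th u ^ 2)

/-- the horizontal speed -/
noncomputable def RR (c1 c2 c3 : ℝ) (u : ℝ) : ℝ := R0 u + c1 * b1 u + c2 * b2 u + c3 * b3 u

/-- the total speed (derivative of the time change) -/
noncomputable def lam (c1 c2 c3 : ℝ) (u : ℝ) : ℝ := dl + c1 * b1 u + c2 * b2 u + c3 * b3 u

/-- ST24. Hint: ContDiff.sqrt, the argument is ≥ 1 by dl_spec; deriv Th is smooth by
(contDiff_infty_iff_deriv.1 Th_contDiff).2. -/
theorem R0_contDiff : ContDiff ℝ ∞ R0 := by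
  unfold R0
  have h1 : ContDiff ℝ ∞ (deriv Th) := (contDiff_infty_iff_deriv.1 Th_contDiff).2
  apply ContDiff.sqrt
  · exact contDiff_const.sub (h1.pow 2)
  · intro u
    have := dl_spec u
    intro hc
    linarith

/-- ST25. Hint: periodic_deriv Th_periodic. -/
theorem R0_periodic : Function.Periodic R0 1 := by
  intro x
  unfold R0
  rw [periodic_deriv Th_periodic x]

/-- ST26. Hint: if some b_j u ≠ 0 then deriv Th u = 0 (deriv_Th_eq_zero) and R0 u = dl
(Real.sqrt_sq, dl_one); otherwise RR = R0, lam = dl and R0 ^ 2 = dl ^ 2 - deriv Th u ^ 2 (Real.sq_sqrt, dl_spec). -/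
theorem RR_sq (c1 c2 c3 u : ℝ) : RR c1 c2 c3 u ^ 2 + deriv Th u ^ 2 = lam c1 c2 c3 u ^ 2 := by
  by_cases h : b1 u ≠ 0 ∨ b2 u ≠ 0 ∨ b3 u ≠ 0
  · have h0 : deriv Th u = 0 := deriv_Th_eq_zero h
    have hR : R0 u = dl := by
      unfold R0
      rw [h0]
      have : dl ^ 2 - (0:ℝ) ^ 2 = dl ^ 2 := by ring
      rw [this]
      exact Real.sqrt_sq (le_trans zero_le_one dl_one)
    unfold RR lam
    rw [hR, h0]
    ring
  · have h1 : b1 u = 0 := by
      by_contra hc
      exact h (Or.inl hc)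
    have h2 : b2 u = 0 := by
      by_contra hc
      exact h (Or.inr (Or.inl hc))
    have h3 : b3 u = 0 := by
      by_contra hc
      exact h (Or.inr (Or.inr hc))
    have hR : R0 u ^ 2 = dl ^ 2 - deriv Th u ^ 2 := by
      unfold R0
      exact Real.sq_sqrt (by have := dl_spec u; linarith)
    unfold RR lam
    rw [h1, h2, h3]
    simp only [mul_zero, add_zero]
    rw [hR]
    ring

/-- ST27. -/
theorem RR_contDiff (c1 c2 c3 : ℝ) : ContDiff ℝ ∞ (RR c1 c2 c3) := by
  unfold RR
  exact ((R0_contDiff.add (contDiff_const.mul b_contDiff.1)).add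
    (contDiff_const.mul b_contDiff.2.1)).add (contDiff_const.mul b_contDiff.2.2)

/-- ST28. -/
theorem RR_periodic (c1 c2 c3 : ℝ) : Function.Periodic (RR c1 c2 c3) 1 := by
  intro x
  unfold RR
  rw [R0_periodic x, b_periodic.1 x, b_periodic.2.1 x, b_periodic.2.2 x]

/-- ST29. -/
theorem lam_contDiff (c1 c2 c3 : ℝ) : ContDiff ℝ ∞ (lam c1 c2 c3) := by
  obtain ⟨h1, h2, h3⟩ := b_contDiff
  unfold lam
  exact ((contDiff_const.add (contDiff_const.mul h1)).add (contDiff_const.mul h2)).add
    (contDiff_const.mul h3)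

/-- ST30. -/
theorem lam_periodic (c1 c2 c3 : ℝ) : Function.Periodic (lam c1 c2 c3) 1 := by
  intro u
  unfold lam
  rw [b_periodic.1 u, b_periodic.2.1 u, b_periodic.2.2 u]

/-- ST31. Hint: b_nonneg, dl_one. -/
theorem lam_ge {c1 c2 c3 : ℝ} (h1 : 0 ≤ c1) (h2 : 0 ≤ c2) (h3 : 0 ≤ c3) (u : ℝ) :
    1 ≤ lam c1 c2 c3 u := by
  obtain ⟨g1, g2, g3⟩ := b_nonneg u
  have d := dl_one
  have e1 := mul_nonneg h1 g1
  have e2 := mul_nonneg h2 g2
  have e3 := mul_nonneg h3 g3
  unfold lam
  linarith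

noncomputable def A0 : ℝ := ∫ u in (0:ℝ)..1, tn u * R0 u
noncomputable def B0 : ℝ := ∫ u in (0:ℝ)..1, ct u * R0 u

/-- ST32. Hint: linearity of the interval integral (integral_add, integral_const_mul, integral_const);
all functions continuous. -/
theorem int_lam (c1 c2 c3 : ℝ) :
    ∫ u in (0:ℝ)..1, lam c1 c2 c3 u = dl + c1 * n1 + c2 * n2 + c3 * n3 := by
  obtain ⟨h1, h2, h3⟩ := b_contDiff
  have i1 : IntervalIntegrable b1 volume 0 1 := h1.continuous.intervalIntegrable _ _
  have i2 : IntervalIntegrable b2 volume 0 1 := h2.continuous.intervalIntegrable _ _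
  have i3 : IntervalIntegrable b3 volume 0 1 := h3.continuous.intervalIntegrable _ _
  unfold lam n1 n2 n3
  rw [integral_add ((intervalIntegrable_const.add (i1.const_mul c1)).add (i2.const_mul c2))
      (i3.const_mul c3),
    integral_add (intervalIntegrable_const.add (i1.const_mul c1)) (i2.const_mul c2),
    integral_add intervalIntegrable_const (i1.const_mul c1),
    intervalIntegral.integral_const_mul, intervalIntegral.integral_const_mul,
    intervalIntegral.integral_const_mul, intervalIntegral.integral_const]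
  simp

/-- ST33. Hint: pointwise tn u * b1 u = b1 u, tn u * b2 u = 2 * b2 u, tn u * b3 u = b3 u / 2 (by cases b_j u = 0 or
tn_ct_bj); so tn * RR = tn * R0 + c1 b1 + 2 c2 b2 + (c3/2) b3; then linearity as in ST32. -/
theorem int_tn (c1 c2 c3 : ℝ) :
    ∫ u in (0:ℝ)..1, tn u * RR c1 c2 c3 u = A0 + c1 * n1 + 2 * (c2 * n2) + c3 * n3 / 2 := by
  have hb := b_contDiff
  have k0 : Continuous (fun u => tn u * R0 u) :=
    tn_ct_contDiff.1.continuous.mul R0_contDiff.continuous
  have k1 : Continuous b1 := hb.1.continuous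
  have k2 : Continuous b2 := hb.2.1.continuous
  have k3 : Continuous b3 := hb.2.2.continuous
  have hpt : ∀ u, tn u * RR c1 c2 c3 u
      = tn u * R0 u + c1 * b1 u + (2 * c2) * b2 u + (c3 / 2) * b3 u := by
    intro u
    have e1 : tn u * b1 u = b1 u := by
      by_cases h : b1 u = 0
      · simp [h]
      · rw [(tn_ct_b1 h).1, one_mul]
    have e2 : tn u * b2 u = 2 * b2 u := by
      by_cases h : b2 u = 0
      · simp [h]
      · rw [(tn_ct_b2 h).1]
    have e3 : tn u * b3 u = b3 u / 2 := by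
      by_cases h : b3 u = 0
      · simp [h]
      · rw [(tn_ct_b3 h).1]; ring
    unfold RR
    linear_combination c1 * e1 + c2 * e2 + c3 * e3
  simp_rw [hpt]
  have i0 : IntervalIntegrable (fun u => tn u * R0 u) volume 0 1 := k0.intervalIntegrable _ _
  have i1 : IntervalIntegrable (fun u => c1 * b1 u) volume 0 1 :=
    (k1.const_mul c1).intervalIntegrable _ _
  have i2 : IntervalIntegrable (fun u => (2 * c2) * b2 u) volume 0 1 :=
    (k2.const_mul (2 * c2)).intervalIntegrable _ _
  have i3 : IntervalIntegrable (fun u => (c3 / 2) * b3 u) volume 0 1 :=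
    (k3.const_mul (c3 / 2)).intervalIntegrable _ _
  rw [intervalIntegral.integral_add ((i0.add i1).add i2) i3,
    intervalIntegral.integral_add (i0.add i1) i2,
    intervalIntegral.integral_add i0 i1,
    intervalIntegral.integral_const_mul, intervalIntegral.integral_const_mul,
    intervalIntegral.integral_const_mul]
  unfold A0 n1 n2 n3
  ring

/-- ST34. Hint: as ST33 with ct. -/
theorem int_ct (c1 c2 c3 : ℝ) :
    ∫ u in (0:ℝ)..1, ct u * RR c1 c2 c3 u = B0 + c1 * n1 + c2 * n2 / 2 + 2 * (c3 * n3) := by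
  have hpt : ∀ u, ct u * RR c1 c2 c3 u =
      ct u * R0 u + c1 * b1 u + (c2 / 2) * b2 u + (2 * c3) * b3 u := by
    intro u
    have e1 : ct u * b1 u = b1 u := by
      by_cases h : b1 u = 0
      · rw [h]; simp
      · rw [(tn_ct_b1 h).2, one_mul]
    have e2 : ct u * b2 u = b2 u / 2 := by
      by_cases h : b2 u = 0
      · rw [h]; simp
      · rw [(tn_ct_b2 h).2]; ring
    have e3 : ct u * b3 u = 2 * b3 u := by
      by_cases h : b3 u = 0
      · rw [h]; simp
      · rw [(tn_ct_b3 h).2]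
    unfold RR
    calc ct u * (R0 u + c1 * b1 u + c2 * b2 u + c3 * b3 u)
        = ct u * R0 u + c1 * (ct u * b1 u) + c2 * (ct u * b2 u) + c3 * (ct u * b3 u) := by ring
      _ = ct u * R0 u + c1 * b1 u + (c2 / 2) * b2 u + (2 * c3) * b3 u := by
        rw [e1, e2, e3]; ring
  have hc0 : Continuous (fun u => ct u * R0 u) :=
    tn_ct_contDiff.2.continuous.mul R0_contDiff.continuous
  have hb1 : Continuous b1 := b_contDiff.1.continuous
  have hb2 : Continuous b2 := b_contDiff.2.1.continuous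
  have hb3 : Continuous b3 := b_contDiff.2.2.continuous
  have i0 : IntervalIntegrable (fun u => ct u * R0 u) volume 0 1 := hc0.intervalIntegrable _ _
  have i1 : IntervalIntegrable (fun u => c1 * b1 u) volume 0 1 :=
    (continuous_const.mul hb1).intervalIntegrable _ _
  have i2 : IntervalIntegrable (fun u => (c2 / 2) * b2 u) volume 0 1 :=
    (continuous_const.mul hb2).intervalIntegrable _ _
  have i3 : IntervalIntegrable (fun u => (2 * c3) * b3 u) volume 0 1 :=
    (continuous_const.mul hb3).intervalIntegrable _ _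
  rw [intervalIntegral.integral_congr (fun u _ => hpt u),
    intervalIntegral.integral_add ((i0.add i1).add i2) i3,
    intervalIntegral.integral_add (i0.add i1) i2, intervalIntegral.integral_add i0 i1,
    intervalIntegral.integral_const_mul, intervalIntegral.integral_const_mul,
    intervalIntegral.integral_const_mul]
  unfold B0 n1 n2 n3
  ring

/-- ST35. every real is congruent mod 2 pi to a number of [0, 2 pi).  Hint: z = floor (t / (2 pi)),
Int.floor_le, Int.lt_floor_add_one. -/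
theorem exists_rep (t : ℝ) : ∃ (X : ℝ) (z : ℤ), 0 ≤ X ∧ X < 2 * π ∧ X = t + 2 * π * z := by
  have hp : 0 < 2 * π := by positivity
  refine ⟨t + 2 * π * ((-⌊t / (2 * π)⌋ : ℤ) : ℝ), -⌊t / (2 * π)⌋, ?_, ?_, rfl⟩
  · have h := Int.floor_le (t / (2 * π))
    rw [le_div_iff₀ hp] at h
    push_cast
    nlinarith
  · have h := Int.lt_floor_add_one (t / (2 * π))
    rw [div_lt_iff₀ hp] at h
    push_cast
    nlinarith

/-- ST36. The closing conditions are solvable.  Hint: with M = L - dl take (exists_rep) X = h1 - A0 - M + 2 pi z1,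
Y = h2 - B0 - M + 2 pi z2 in [0, 2 pi); d2 = (4 X + 2 Y)/3, d3 = (2 X + 4 Y)/3, d1 = M - 2 (X + Y) ≥ 0;
c_j = d_j / n_j (n_j > 0); then field_simp / linarith. -/
theorem solve (L h1 h2 : ℝ) (hL : dl + 8 * π ≤ L) :
    ∃ (c1 c2 c3 : ℝ) (z1 z2 : ℤ), 0 ≤ c1 ∧ 0 ≤ c2 ∧ 0 ≤ c3 ∧
      dl + c1 * n1 + c2 * n2 + c3 * n3 = L ∧
      A0 + c1 * n1 + 2 * (c2 * n2) + c3 * n3 / 2 = h1 + 2 * π * z1 ∧
      B0 + c1 * n1 + c2 * n2 / 2 + 2 * (c3 * n3) = h2 + 2 * π * z2 := by
  obtain ⟨X, z1, hX0, hX1, hX⟩ := exists_rep (h1 - A0 - (L - dl))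
  obtain ⟨Y, z2, hY0, hY1, hY⟩ := exists_rep (h2 - B0 - (L - dl))
  have p1 := n1_pos
  have p2 := n2_pos
  have p3 := n3_pos
  refine ⟨((L - dl) - 2 * (X + Y)) / n1, ((4 * X + 2 * Y) / 3) / n2,
    ((2 * X + 4 * Y) / 3) / n3, z1, z2, ?_, ?_, ?_, ?_, ?_, ?_⟩
  · apply div_nonneg _ p1.le
    linarith
  · apply div_nonneg _ p2.le
    linarith
  · apply div_nonneg _ p3.le
    linarith
  · rw [div_mul_cancel₀ _ p1.ne', div_mul_cancel₀ _ p2.ne', div_mul_cancel₀ _ p3.ne']
    ring
  · rw [div_mul_cancel₀ _ p1.ne', div_mul_cancel₀ _ p2.ne', div_mul_cancel₀ _ p3.ne']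
    linarith
  · rw [div_mul_cancel₀ _ p1.ne', div_mul_cancel₀ _ p2.ne', div_mul_cancel₀ _ p3.ne']
    linarith

end Vale.Agent.P205.Tw
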